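import Vale.Agent.P369.H374.Pad
import Vale.Agent.P369.H688.BS

/-!
P369 (helper374), package LIM of the finite-matrix track.
-/

set_option linter.all false

namespace Vale.Agent.P369.H374

open Matrix Filter
open Vale.Agent.P369 (Conf up down ampn g)
open Vale.Agent.P369A (Ct)
open Vale.Agent.P369.FD
open scoped Kronecker ComplexOrder Topology

noncomputable section

variable {n : ℕ}

/-! ### energies -/

theorem trace_fnum {X : ℕ} (v : ℕ → ℝ) (A : Matrix (Ct n X) (Ct n X) ℂ) :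
    (fnum (n := n) X v * A).trace.re = ∑ k : Ct n X, v (∑ j, k.1 j) * (A k k).re := by
  unfold fnum
  rw [Matrix.trace, Complex.re_sum]
  refine Finset.sum_congr rfl fun k _ => ?_
  rw [Matrix.diag_apply, Matrix.diagonal_mul, Complex.re_ofReal_mul]

theorem enr_eq_fnum {X : ℕ} (A : Matrix (Ct n X) (Ct n X) ℂ) :
    enr A = (fnum (n := n) X (fun k => (k : ℝ)) * A).trace.re := by
  rw [trace_fnum]
  rfl

theorem enr_eq_nm {X : ℕ} (A : Matrix (Ct n X) (Ct n X) ℂ) :
    enr A = ∑ j, (A * ((low (n := n) X j)ᴴ * low X j)).trace.re := by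
  rw [enr_eq_fnum, ← nm_low, Matrix.trace_mul_comm]
  unfold nm
  rw [Matrix.mul_sum, Matrix.trace_sum, Complex.re_sum]

theorem enr_pad {X Y : ℕ} (h : X ≤ Y) (A : Matrix (Ct n X) (Ct n X) ℂ) :
    enr (pad Y A) = enr A := by
  rw [enr_eq_fnum, enr_eq_fnum, trace_fnum_pad h]

/-- energy of the output -/
theorem enr_outp {η : ℝ} (h0 : 0 ≤ η) (h1 : η ≤ 1) {D : ℕ} {A B : Matrix (Ct n D) (Ct n D) ℂ}
    (hA : IsDM A) (hB : IsDM B) :
    enr (outp (bsW n η D) A B) = η * enr A + (1 - η) * enr B +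
      2 * (Real.sqrt η * Real.sqrt (1 - η)) *
        ∑ j, (star (A * low D j).trace * (B * low D j).trace).re := by
  have hs : Real.sqrt η ^ 2 = η := Real.sq_sqrt h0
  have ht : Real.sqrt (1 - η) ^ 2 = 1 - η := Real.sq_sqrt (by linarith)
  rw [enr_eq_nm, enr_eq_nm, enr_eq_nm, Finset.mul_sum, Finset.mul_sum, Finset.mul_sum,
    ← Finset.sum_add_distrib, ← Finset.sum_add_distrib]
  refine Finset.sum_congr rfl fun j _ => ?_
  rw [trace_outp_cc (thm_BS n η h0 h1 D) hA hB j, hs, ht]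

theorem two_sqrt_le {η : ℝ} (h0 : 0 ≤ η) (h1 : η ≤ 1) :
    2 * (Real.sqrt η * Real.sqrt (1 - η)) ≤ 1 := by
  have hs : Real.sqrt η ^ 2 = η := Real.sq_sqrt h0
  have ht : Real.sqrt (1 - η) ^ 2 = 1 - η := Real.sq_sqrt (by linarith)
  nlinarith [sq_nonneg (Real.sqrt η - Real.sqrt (1 - η))]

theorem abs_re_star_mul_le (z w : ℂ) {x : ℝ} (hz : ‖z‖ ^ 2 ≤ x) (hw : ‖w‖ ^ 2 ≤ x) :
    |(star z * w).re| ≤ x := by
  have h1 : |(star z * w).re| ≤ ‖z‖ * ‖w‖ := by
    refine (Complex.abs_re_le_norm _).trans ?_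
    rw [norm_mul, norm_star]
  nlinarith [sq_nonneg (‖z‖ - ‖w‖)]

/-- the cross term of the energy is small if the first moments are -/
theorem cross_le {η : ℝ} (h0 : 0 ≤ η) (h1 : η ≤ 1) {D : ℕ} {A B : Matrix (Ct n D) (Ct n D) ℂ}
    {x : ℝ} (hA : ∀ j, ‖(A * low D j).trace‖ ^ 2 ≤ x) (hB : ∀ j, ‖(B * low D j).trace‖ ^ 2 ≤ x) :
    |2 * (Real.sqrt η * Real.sqrt (1 - η)) *
        ∑ j, (star (A * low D j).trace * (B * low D j).trace).re| ≤ n * x := by
  have hp : 0 ≤ 2 * (Real.sqrt η * Real.sqrt (1 - η)) := by positivity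
  rw [abs_mul, abs_of_nonneg hp]
  have e : |∑ j, (star (A * low D j).trace * (B * low D j).trace).re| ≤ n * x := by
    refine (Finset.abs_sum_le_sum_abs _ _).trans ?_
    calc ∑ j, |(star (A * low D j).trace * (B * low D j).trace).re| ≤ ∑ _j : Fin n, x :=
          Finset.sum_le_sum fun j _ => abs_re_star_mul_le _ _ (hA j) (hB j)
      _ = n * x := by simp
  calc _ ≤ 1 * |∑ j, (star (A * low D j).trace * (B * low D j).trace).re| :=
        mul_le_mul_of_nonneg_right (two_sqrt_le h0 h1) (abs_nonneg _)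
    _ ≤ n * x := by rw [one_mul]; exact e

/-- first moments of the output -/
theorem norm_outp_c {η : ℝ} (h0 : 0 ≤ η) (h1 : η ≤ 1) {D : ℕ} {A B : Matrix (Ct n D) (Ct n D) ℂ}
    (hA : IsDM A) (hB : IsDM B) {x : ℝ} (j : Fin n) (hAx : ‖(A * low D j).trace‖ ^ 2 ≤ x)
    (hBx : ‖(B * low D j).trace‖ ^ 2 ≤ x) :
    ‖(outp (bsW n η D) A B * low (2 * D) j).trace‖ ^ 2 ≤ 2 * x := by
  rw [trace_outp_c (thm_BS n η h0 h1 D) hA.2 hB.2 j]
  have hs : Real.sqrt η ^ 2 = η := Real.sq_sqrt h0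
  have ht : Real.sqrt (1 - η) ^ 2 = 1 - η := Real.sq_sqrt (by linarith)
  have h3 : ‖(Real.sqrt η : ℂ) * (A * low D j).trace +
      (Real.sqrt (1 - η) : ℂ) * (B * low D j).trace‖ ≤
      Real.sqrt η * ‖(A * low D j).trace‖ + Real.sqrt (1 - η) * ‖(B * low D j).trace‖ := by
    refine (norm_add_le _ _).trans ?_
    rw [norm_mul, norm_mul, Complex.norm_real, Complex.norm_real, Real.norm_eq_abs,
      Real.norm_eq_abs, abs_of_nonneg (Real.sqrt_nonneg _), abs_of_nonneg (Real.sqrt_nonneg _)]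
  have h4 := pow_le_pow_left₀ (norm_nonneg _) h3 2
  refine h4.trans ?_
  set p := ‖(A * low D j).trace‖
  set q := ‖(B * low D j).trace‖
  have hx : 0 ≤ x := (sq_nonneg _).trans hAx
  nlinarith [sq_nonneg (Real.sqrt η * q - Real.sqrt (1 - η) * p), mul_le_mul_of_nonneg_left hAx h0,
    mul_le_mul_of_nonneg_left hBx (sub_nonneg.2 h1), mul_le_mul_of_nonneg_left hBx h0,
    mul_le_mul_of_nonneg_left hAx (sub_nonneg.2 h1), sq_nonneg p, sq_nonneg q]

/-! ### the entropy of a shifted matrix -/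

theorem negMulLog_add_le {x y : ℝ} (hx : 0 ≤ x) (hy : 0 ≤ y) :
    Real.negMulLog (x + y) ≤ Real.negMulLog x + Real.negMulLog y := by
  unfold Real.negMulLog
  rcases hx.eq_or_lt with rfl | hx
  · simp
  rcases hy.eq_or_lt with rfl | hy
  · simp
  have h1 : Real.log x ≤ Real.log (x + y) := Real.log_le_log hx (by linarith)
  have h2 : Real.log y ≤ Real.log (x + y) := Real.log_le_log hy (by linarith)
  nlinarith

theorem ent_add_le {ι : Type} [Fintype ι] [DecidableEq ι] {A : Matrix ι ι ℂ} (hA : A.PosSemidef)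
    {e : ℝ} (he : 0 ≤ e) :
    ent (A + ((e : ℝ) : ℂ) • (1 : Matrix ι ι ℂ)) ≤ ent A + Fintype.card ι * Real.negMulLog e := by
  have hH : A.IsHermitian := hA.isHermitian
  have hsa : IsSelfAdjoint A := hH
  have e1 : A + ((e : ℝ) : ℂ) • (1 : Matrix ι ι ℂ) = cfc (fun x : ℝ => x + e) A := by
    rw [cfc_add_const e (fun x : ℝ => x) A (by fun_prop) hsa, cfc_id' ℝ A,
      Algebra.algebraMap_eq_smul_one, Complex.coe_smul]
  have e2 : cfc Real.negMulLog (A + ((e : ℝ) : ℂ) • (1 : Matrix ι ι ℂ)) =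
      cfc (fun x : ℝ => Real.negMulLog (x + e)) A := by
    rw [e1, ← cfc_comp' Real.negMulLog (fun x : ℝ => x + e) A
      Real.continuous_negMulLog.continuousOn (by fun_prop) hsa]
  have e3 : ent (A + ((e : ℝ) : ℂ) • (1 : Matrix ι ι ℂ)) =
      ∑ i, Real.negMulLog (hH.eigenvalues i + e) := by
    show (cfc Real.negMulLog (A + ((e : ℝ) : ℂ) • (1 : Matrix ι ι ℂ))).trace.re = _
    rw [e2, Vale.Agent.P369V.b_trace_cfc hH]
  have e4 : ent A = ∑ i, Real.negMulLog (hH.eigenvalues i) := by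
    show (cfc Real.negMulLog A).trace.re = _
    rw [Vale.Agent.P369V.b_trace_cfc hH]
  rw [e3, e4]
  calc ∑ i, Real.negMulLog (hH.eigenvalues i + e)
      ≤ ∑ i, (Real.negMulLog (hH.eigenvalues i) + Real.negMulLog e) :=
        Finset.sum_le_sum fun i _ => negMulLog_add_le (hA.eigenvalues_nonneg i) he
    _ = _ := by
        rw [Finset.sum_add_distrib, Finset.sum_const, Finset.card_univ, nsmul_eq_mul]

/-! ### limits -/

theorem card_Ct_le (n X : ℕ) : Fintype.card (Ct n X) ≤ (X + 1) ^ n := by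
  have h := Fintype.card_le_of_injective
    (fun (x : Ct n X) (j : Fin n) => (⟨x.1 j, Nat.lt_succ_of_le
      ((Finset.single_le_sum (f := fun i => x.1 i) (fun _ _ => Nat.zero_le _)
        (Finset.mem_univ j)).trans x.2)⟩ : Fin (X + 1)))
    (fun x y h => Subtype.ext (funext fun j => by simpa using congrFun h j))
  simpa using h

theorem negMulLog_eD (D : ℕ) : Real.negMulLog (eD D) = D * Real.exp (-(D : ℝ)) := by
  unfold Real.negMulLog eD
  rw [Real.log_exp]
  ring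

theorem tendsto_card : Tendsto (fun D : ℕ => (Fintype.card (Ct n (2 * D)) : ℝ) *
    Real.negMulLog (eD D)) atTop (𝓝 0) := by
  have h1 : Tendsto (fun D : ℕ => (3 : ℝ) ^ n * ((D : ℝ) ^ (n + 1) * Real.exp (-(D : ℝ)))) atTop
      (𝓝 0) := by
    have h := ((Real.tendsto_pow_mul_exp_neg_atTop_nhds_zero (n + 1)).comp
      tendsto_natCast_atTop_atTop).const_mul ((3 : ℝ) ^ n)
    rw [mul_zero] at h
    exact h
  refine squeeze_zero' (Eventually.of_forall fun D => ?_) ?_ h1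
  · rw [negMulLog_eD]
    positivity
  · filter_upwards [eventually_ge_atTop 1] with D hD
    rw [negMulLog_eD]
    have h2 : (Fintype.card (Ct n (2 * D)) : ℝ) ≤ ((2 * D + 1 : ℕ) : ℝ) ^ n := by
      exact_mod_cast card_Ct_le n (2 * D)
    have hD' : (1 : ℝ) ≤ D := by exact_mod_cast hD
    have h3 : ((2 * D + 1 : ℕ) : ℝ) ^ n ≤ (3 * (D : ℝ)) ^ n := by
      refine pow_le_pow_left₀ (by positivity) ?_ n
      push_cast
      linarith
    have h4 : 0 ≤ (D : ℝ) * Real.exp (-(D : ℝ)) := by positivity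
    calc _ ≤ (3 * (D : ℝ)) ^ n * ((D : ℝ) * Real.exp (-(D : ℝ))) :=
          mul_le_mul_of_nonneg_right (h2.trans h3) h4
      _ = _ := by
          rw [mul_pow]
          ring

theorem tendsto_wD {lam : ℝ} (h : 1 < lam) : Tendsto (fun D : ℕ => wD lam D) atTop (𝓝 0) := by
  unfold wD
  have h1 : 1 < Real.sqrt lam := by
    rw [Real.lt_sqrt (by norm_num)]
    simpa using h
  exact tendsto_inv_atTop_zero.comp (tendsto_pow_atTop_atTop_of_one_lt h1)

theorem lin_limit {a b : ℝ} (h : ∀ δ : ℝ, 0 < δ → a ≤ δ * b) : a ≤ 0 := by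
  by_contra hc
  push Not at hc
  have hb : 0 < |b| + 1 := by positivity
  have h1 := h (a / (2 * (|b| + 1))) (by positivity)
  have h2 : a / (2 * (|b| + 1)) * b ≤ a / 2 := by
    have h3 : a / (2 * (|b| + 1)) * b ≤ a / (2 * (|b| + 1)) * (|b| + 1) :=
      mul_le_mul_of_nonneg_left (by linarith [le_abs_self b]) (by positivity)
    have h4 : a / (2 * (|b| + 1)) * (|b| + 1) = a / 2 := by
      field_simp
    linarith
  linarith

theorem bb_pos {N : ℝ} (h : 0 < N) : 0 < bb N := by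
  unfold bb
  apply Real.log_pos
  have : 0 < 1 / N := by positivity
  linarith

theorem diag_re_nonneg {ι : Type} [Fintype ι] {A : Matrix ι ι ℂ} (hA : A.PosSemidef) (i : ι) :
    0 ≤ (A i i).re := (Complex.le_def.1 hA.diag_nonneg).1

end

end Vale.Agent.P369.H374
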