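import Vale.Agent.P369.FD.Stmts

/-!
P369 (helper374), package LIM of the finite-matrix track: channel calculus (trace identities for
the output matrix), and zero padding of matrices on at most `X` photons to at most `Y` photons.
-/

set_option linter.all false

namespace Vale.Agent.P369.H374

open Matrix Filter
open Vale.Agent.P369 (Conf up down ampn g)
open Vale.Agent.P369A (Ct)
open Vale.Agent.P369.FD
open scoped Kronecker ComplexOrder Topology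

noncomputable section

section gen

variable {ι ι' κ ε κ' ε' J : Type} [Fintype ι] [DecidableEq ι] [Fintype ι'] [DecidableEq ι']
  [Fintype κ] [DecidableEq κ] [Fintype ε] [DecidableEq ε] [Fintype κ'] [DecidableEq κ']
  [Fintype ε'] [DecidableEq ε'] [Fintype J]

/-- `Tr ((P ⊗ 1) X) = Tr (P ptrR X)` -/
theorem trace_kron_one_mul (P : Matrix κ κ ℂ) (X : Matrix (κ × ε) (κ × ε) ℂ) :
    ((P ⊗ₖ (1 : Matrix ε ε ℂ)) * X).trace = (P * ptrR X).trace := by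
  simp only [Matrix.trace, Matrix.diag_apply, Matrix.mul_apply, Fintype.sum_prod_type,
    kroneckerMap_apply, ptrR, Matrix.one_apply, mul_ite, mul_one, mul_zero, ite_mul,
    zero_mul, Finset.sum_ite_eq, Finset.mem_univ, if_true, Finset.mul_sum]
  refine Finset.sum_congr rfl fun i _ => ?_
  rw [Finset.sum_comm]

/-- duality: `Tr (outp W A B * Z) = Tr ((A ⊗ B) W† (Z ⊗ 1) W)` -/
theorem trace_outp_mul (W : Matrix (κ × ε) (ι × ι') ℂ) (A : Matrix ι ι ℂ) (B : Matrix ι' ι' ℂ)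
    (Z : Matrix κ κ ℂ) :
    (outp W A B * Z).trace = ((A ⊗ₖ B) * (Wᴴ * (Z ⊗ₖ (1 : Matrix ε ε ℂ)) * W)).trace := by
  rw [Matrix.trace_mul_comm, outp, ← trace_kron_one_mul]
  rw [← Matrix.mul_assoc, ← Matrix.mul_assoc, Matrix.trace_mul_comm]
  rw [← Matrix.mul_assoc, ← Matrix.mul_assoc, ← Matrix.mul_assoc, Matrix.trace_mul_comm,
    ← Matrix.mul_assoc, ← Matrix.mul_assoc]

theorem ptrR_posSemidef {X : Matrix (κ × ε) (κ × ε) ℂ} (hX : X.PosSemidef) :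
    (ptrR X).PosSemidef := by
  have : ptrR X = ∑ k : ε, X.submatrix (fun i => (i, k)) (fun i => (i, k)) := by
    ext i j
    simp [Matrix.sum_apply, ptrR]
  rw [this]
  exact Matrix.posSemidef_sum _ fun k _ => hX.submatrix _

theorem outp_posSemidef (W : Matrix (κ × ε) (ι × ι') ℂ) {A : Matrix ι ι ℂ} {B : Matrix ι' ι' ℂ}
    (hA : A.PosSemidef) (hB : B.PosSemidef) : (outp W A B).PosSemidef :=
  ptrR_posSemidef ((hA.kronecker hB).mul_mul_conjTranspose_same W)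

theorem outp_isDM {W : Matrix (κ × ε) (ι × ι') ℂ} (hW : Wᴴ * W = 1) {A : Matrix ι ι ℂ}
    {B : Matrix ι' ι' ℂ} (hA : IsDM A) (hB : IsDM B) : IsDM (outp W A B) := by
  refine ⟨outp_posSemidef W hA.1 hB.1, ?_⟩
  have h := trace_outp_mul W A B 1
  rw [Matrix.mul_one, Matrix.one_kronecker_one, Matrix.mul_one, hW, Matrix.mul_one,
    Matrix.trace_kronecker, hA.2, hB.2, mul_one] at h
  exact h

/-- `Tr (C c_j) = s Tr (A a_j) + t Tr (B b_j)` -/
theorem trace_outp_c {s t s' t' : ℝ} {a : J → Matrix ι ι ℂ} {b : J → Matrix ι' ι' ℂ}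
    {c : J → Matrix κ κ ℂ} {d : J → Matrix ε ε ℂ} {W : Matrix (κ × ε) (ι × ι') ℂ}
    (h : Split s t s' t' a b c d W) {A : Matrix ι ι ℂ} {B : Matrix ι' ι' ℂ} (hA : A.trace = 1)
    (hB : B.trace = 1) (j : J) :
    (outp W A B * c j).trace = (s : ℂ) * (A * a j).trace + (t : ℂ) * (B * b j).trace := by
  have e : Wᴴ * (c j ⊗ₖ (1 : Matrix ε ε ℂ)) * W =
      ((s : ℝ) : ℂ) • (a j ⊗ₖ (1 : Matrix ι' ι' ℂ)) + ((t : ℝ) : ℂ) • ((1 : Matrix ι ι ℂ) ⊗ₖ b j) := by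
    rw [Matrix.mul_assoc, h.hc j, ← Matrix.mul_assoc, h.iso, Matrix.one_mul]
  rw [trace_outp_mul, e,
    Matrix.mul_add, Matrix.mul_smul, Matrix.mul_smul, ← Matrix.mul_kronecker_mul,
    ← Matrix.mul_kronecker_mul, Matrix.mul_one, Matrix.mul_one, Matrix.trace_add,
    Matrix.trace_smul, Matrix.trace_smul, Matrix.trace_kronecker, Matrix.trace_kronecker, hA, hB,
    mul_one, one_mul, smul_eq_mul, smul_eq_mul]

/-- energy of one mode of the output -/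
theorem trace_outp_cc {s t s' t' : ℝ} {a : J → Matrix ι ι ℂ} {b : J → Matrix ι' ι' ℂ}
    {c : J → Matrix κ κ ℂ} {d : J → Matrix ε ε ℂ} {W : Matrix (κ × ε) (ι × ι') ℂ}
    (h : Split s t s' t' a b c d W) {A : Matrix ι ι ℂ} {B : Matrix ι' ι' ℂ} (hA : IsDM A)
    (hB : IsDM B) (j : J) :
    (outp W A B * ((c j)ᴴ * c j)).trace.re =
      s ^ 2 * (A * ((a j)ᴴ * a j)).trace.re + t ^ 2 * (B * ((b j)ᴴ * b j)).trace.re +
        2 * (s * t) * (star (A * a j).trace * (B * b j).trace).re := by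
  have e1 : Wᴴ * (((c j)ᴴ * c j) ⊗ₖ (1 : Matrix ε ε ℂ)) * W =
      (((s : ℝ) : ℂ) • (a j ⊗ₖ (1 : Matrix ι' ι' ℂ)) + ((t : ℝ) : ℂ) • ((1 : Matrix ι ι ℂ) ⊗ₖ b j))ᴴ *
      (((s : ℝ) : ℂ) • (a j ⊗ₖ (1 : Matrix ι' ι' ℂ)) +
        ((t : ℝ) : ℂ) • ((1 : Matrix ι ι ℂ) ⊗ₖ b j)) := by
    set R : Matrix (ι × ι') (ι × ι') ℂ := ((s : ℝ) : ℂ) • (a j ⊗ₖ (1 : Matrix ι' ι' ℂ)) +
      ((t : ℝ) : ℂ) • ((1 : Matrix ι ι ℂ) ⊗ₖ b j) with hR
    have h1 : ((c j)ᴴ * c j) ⊗ₖ (1 : Matrix ε ε ℂ) =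
        (c j ⊗ₖ (1 : Matrix ε ε ℂ))ᴴ * (c j ⊗ₖ (1 : Matrix ε ε ℂ)) := by
      rw [Matrix.conjTranspose_kronecker, ← Matrix.mul_kronecker_mul, Matrix.conjTranspose_one,
        Matrix.one_mul]
    rw [h1]
    calc Wᴴ * ((c j ⊗ₖ (1 : Matrix ε ε ℂ))ᴴ * (c j ⊗ₖ (1 : Matrix ε ε ℂ))) * W
        = ((c j ⊗ₖ (1 : Matrix ε ε ℂ)) * W)ᴴ * ((c j ⊗ₖ (1 : Matrix ε ε ℂ)) * W) := by
          rw [Matrix.conjTranspose_mul]
          simp only [Matrix.mul_assoc]
      _ = (W * R)ᴴ * (W * R) := by rw [h.hc j]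
      _ = Rᴴ * (Wᴴ * W) * R := by
          rw [Matrix.conjTranspose_mul]
          simp only [Matrix.mul_assoc]
      _ = Rᴴ * R := by rw [h.iso, Matrix.mul_one]
  have hAH : Aᴴ = A := hA.1.isHermitian
  have hBH : Bᴴ = B := hB.1.isHermitian
  have hAa : (A * (a j)ᴴ).trace = star (A * a j).trace := by
    rw [← Matrix.trace_conjTranspose, Matrix.conjTranspose_mul, hAH, Matrix.trace_mul_comm]
  have hBb : (B * (b j)ᴴ).trace = star (B * b j).trace := by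
    rw [← Matrix.trace_conjTranspose, Matrix.conjTranspose_mul, hBH, Matrix.trace_mul_comm]
  have e2 : (outp W A B * ((c j)ᴴ * c j)).trace =
      (s : ℂ) * (s : ℂ) * (A * ((a j)ᴴ * a j)).trace + (t : ℂ) * (t : ℂ) * (B * ((b j)ᴴ * b j)).trace +
      (s : ℂ) * (t : ℂ) * (star (A * a j).trace * (B * b j).trace) +
      (s : ℂ) * (t : ℂ) * ((A * a j).trace * star (B * b j).trace) := by
    have hs : star ((s : ℝ) : ℂ) = (s : ℂ) := Complex.conj_ofReal s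
    have ht : star ((t : ℝ) : ℂ) = (t : ℂ) := Complex.conj_ofReal t
    rw [trace_outp_mul, e1, Matrix.conjTranspose_add, Matrix.conjTranspose_smul,
      Matrix.conjTranspose_smul, Matrix.conjTranspose_kronecker, Matrix.conjTranspose_kronecker,
      Matrix.conjTranspose_one, Matrix.conjTranspose_one, hs, ht]
    simp only [Matrix.add_mul, Matrix.mul_add, Matrix.smul_mul, Matrix.mul_smul,
      ← Matrix.mul_kronecker_mul, Matrix.mul_one, Matrix.one_mul, Matrix.trace_add,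
      Matrix.trace_smul, Matrix.trace_kronecker, hA.2, hB.2, smul_eq_mul, hAa, hBb]
    ring
  have e3 : ((A * a j).trace * star (B * b j).trace).re =
      (star (A * a j).trace * (B * b j).trace).re := by
    simp only [Complex.star_def, Complex.mul_re, Complex.conj_re, Complex.conj_im]
    ring
  rw [e2]
  have r : ∀ (x y : ℝ) (z : ℂ), ((x : ℂ) * (y : ℂ) * z).re = x * y * z.re := fun x y z => by
    rw [← Complex.ofReal_mul, Complex.re_ofReal_mul]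
  rw [Complex.add_re, Complex.add_re, Complex.add_re, r, r, r, r, e3]
  ring

/-- partial trace of a matrix conjugated by a product -/
theorem ptrR_conj {F : Matrix κ' κ ℂ} {G : Matrix ε' ε ℂ} (hG : Gᴴ * G = 1)
    (T : Matrix (κ × ε) (κ × ε) ℂ) :
    ptrR ((F ⊗ₖ G) * T * (F ⊗ₖ G)ᴴ) = F * ptrR T * Fᴴ := by
  have e0 : ∀ (P : Matrix κ' κ' ℂ), (P * ptrR ((F ⊗ₖ G) * T * (F ⊗ₖ G)ᴴ)).trace =
      (P * (F * ptrR T * Fᴴ)).trace := by
    intro P
    rw [← trace_kron_one_mul]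
    have h1 : ((P ⊗ₖ (1 : Matrix ε' ε' ℂ)) * ((F ⊗ₖ G) * T * (F ⊗ₖ G)ᴴ)).trace =
        (((F ⊗ₖ G)ᴴ * (P ⊗ₖ (1 : Matrix ε' ε' ℂ)) * (F ⊗ₖ G)) * T).trace := by
      rw [Matrix.trace_mul_comm]
      calc ((F ⊗ₖ G) * T * (F ⊗ₖ G)ᴴ * (P ⊗ₖ (1 : Matrix ε' ε' ℂ))).trace
          = (((F ⊗ₖ G) * T) * ((F ⊗ₖ G)ᴴ * (P ⊗ₖ (1 : Matrix ε' ε' ℂ)))).trace := by
            rw [Matrix.mul_assoc]
        _ = (((F ⊗ₖ G)ᴴ * (P ⊗ₖ (1 : Matrix ε' ε' ℂ))) * ((F ⊗ₖ G) * T)).trace :=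
            Matrix.trace_mul_comm _ _
        _ = _ := by rw [← Matrix.mul_assoc]
    rw [h1, Matrix.conjTranspose_kronecker, ← Matrix.mul_kronecker_mul, ← Matrix.mul_kronecker_mul,
      Matrix.mul_one, hG, trace_kron_one_mul]
    calc (Fᴴ * P * F * ptrR T).trace = (Fᴴ * (P * F * ptrR T)).trace := by
          simp only [Matrix.mul_assoc]
      _ = (P * F * ptrR T * Fᴴ).trace := Matrix.trace_mul_comm _ _
      _ = _ := by simp only [Matrix.mul_assoc]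
  ext i j
  have h := e0 (Matrix.single j i 1)
  rw [Matrix.trace_single_mul, Matrix.trace_single_mul] at h
  simpa using h

end gen

section pad

variable {n : ℕ}

/-- the inclusion of the space of at most `X` photons in the space of at most `Y` photons -/
def Inc (n X Y : ℕ) : Matrix (Ct n Y) (Ct n X) ℂ := fun x y => if x.1 = y.1 then 1 else 0

theorem mul_Inc {α : Type} {X Y : ℕ} (h : X ≤ Y) (S : Matrix α (Ct n Y) ℂ) (x : α) (y : Ct n X) :
    (S * Inc n X Y) x y = S x ⟨y.1, y.2.trans h⟩ := by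
  rw [Matrix.mul_apply, Finset.sum_eq_single (⟨y.1, y.2.trans h⟩ : Ct n Y)]
  · simp only [Inc, if_true, mul_one]
  · intro z _ hz
    have : ¬ z.1 = y.1 := fun h' => hz (Subtype.ext h')
    simp only [Inc, if_neg this, mul_zero]
  · intro h'
    exact absurd (Finset.mem_univ _) h'

theorem Inc_iso {X Y : ℕ} (h : X ≤ Y) : (Inc n X Y)ᴴ * Inc n X Y = 1 := by
  ext x y
  rw [mul_Inc h, Matrix.conjTranspose_apply, Matrix.one_apply]
  unfold Inc
  by_cases hxy : x = y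
  · subst hxy
    simp
  · have h1 : ¬ y.1 = x.1 := fun h' => hxy (Subtype.ext h'.symm)
    simp only [if_neg hxy, if_neg h1, star_zero]

theorem fnum_mul_Inc {X Y : ℕ} (v : ℕ → ℝ) :
    fnum (n := n) Y v * Inc n X Y = Inc n X Y * fnum (n := n) X v := by
  ext x y
  unfold fnum
  rw [Matrix.diagonal_mul, Matrix.mul_diagonal]
  unfold Inc
  by_cases h : x.1 = y.1
  · rw [if_pos h, h, mul_one, one_mul]
  · rw [if_neg h, mul_zero, zero_mul]

/-- zero padding -/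
def pad {X : ℕ} (Y : ℕ) (A : Matrix (Ct n X) (Ct n X) ℂ) : Matrix (Ct n Y) (Ct n Y) ℂ :=
  Inc n X Y * A * (Inc n X Y)ᴴ

theorem pad_isDM {X Y : ℕ} (h : X ≤ Y) {A : Matrix (Ct n X) (Ct n X) ℂ} (hA : IsDM A) :
    IsDM (pad Y A) := by
  refine ⟨hA.1.mul_mul_conjTranspose_same _, ?_⟩
  unfold pad
  rw [Matrix.mul_assoc, Matrix.trace_mul_comm, Matrix.mul_assoc, Inc_iso h, Matrix.mul_one, hA.2]

theorem ent_pad {X Y : ℕ} (h : X ≤ Y) {A : Matrix (Ct n X) (Ct n X) ℂ} (hA : A.IsHermitian) :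
    ent (pad Y A) = ent A :=
  Vale.Agent.P369A.ent_isometry hA (Inc_iso h)

theorem trace_fnum_pad {X Y : ℕ} (h : X ≤ Y) (v : ℕ → ℝ) (A : Matrix (Ct n X) (Ct n X) ℂ) :
    (fnum Y v * pad Y A).trace = (fnum X v * A).trace := by
  unfold pad
  rw [← Matrix.mul_assoc, ← Matrix.mul_assoc, fnum_mul_Inc, Matrix.trace_mul_comm,
    ← Matrix.mul_assoc, ← Matrix.mul_assoc, Inc_iso h, Matrix.one_mul]

theorem bsW_Inc {X Y : ℕ} (h : X ≤ Y) (η : ℝ) :
    bsW n η Y * (Inc n X Y ⊗ₖ Inc n X Y) =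
      (Inc n (2 * X) (2 * Y) ⊗ₖ Inc n (2 * X) (2 * Y)) * bsW n η X := by
  ext ⟨x1, x2⟩ ⟨y1, y2⟩
  have e1 : (bsW n η Y * (Inc n X Y ⊗ₖ Inc n X Y)) (x1, x2) (y1, y2) =
      ((ampn (Real.sqrt η) (Real.sqrt (1 - η)) x1.1 x2.1 y1.1 y2.1 : ℝ) : ℂ) := by
    rw [Matrix.mul_apply,
      Finset.sum_eq_single ((⟨y1.1, y1.2.trans h⟩, ⟨y2.1, y2.2.trans h⟩) : Ct n Y × Ct n Y)]
    · simp only [bsW, kroneckerMap_apply, Inc, if_true, mul_one]
    · rintro ⟨z1, z2⟩ _ hz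
      rw [kroneckerMap_apply]
      unfold Inc
      by_cases h1 : z1.1 = y1.1
      · have h2 : ¬ z2.1 = y2.1 := fun h2 => hz (Prod.ext (Subtype.ext h1) (Subtype.ext h2))
        simp only [if_neg h2, mul_zero]
      · simp only [if_neg h1, zero_mul, mul_zero]
    · intro h'
      exact absurd (Finset.mem_univ _) h'
  rw [e1, Matrix.mul_apply]
  by_cases hx : ∑ j, x1.1 j ≤ 2 * X ∧ ∑ j, x2.1 j ≤ 2 * X
  · rw [Finset.sum_eq_single ((⟨x1.1, hx.1⟩, ⟨x2.1, hx.2⟩) : Ct n (2 * X) × Ct n (2 * X))]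
    · simp only [bsW, kroneckerMap_apply, Inc, if_true, mul_one, one_mul]
    · rintro ⟨z1, z2⟩ _ hz
      rw [kroneckerMap_apply]
      unfold Inc
      by_cases h1 : x1.1 = z1.1
      · have h2 : ¬ x2.1 = z2.1 := fun h2 =>
          hz (Prod.ext (Subtype.ext h1.symm) (Subtype.ext h2.symm))
        simp only [if_neg h2, mul_zero, zero_mul]
      · simp only [if_neg h1, zero_mul]
    · intro h'
      exact absurd (Finset.mem_univ _) h'
  · have h0 : ampn (Real.sqrt η) (Real.sqrt (1 - η)) x1.1 x2.1 y1.1 y2.1 = 0 := by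
      apply Vale.Agent.P369.ampn_hom
      intro h'
      apply hx
      have h3 : ∑ j, x1.1 j + ∑ j, x2.1 j = ∑ j, y1.1 j + ∑ j, y2.1 j := by
        have := congrArg (fun f : Conf n => ∑ j, f j) h'
        simpa only [Pi.add_apply, Finset.sum_add_distrib] using this
      have h4 := y1.2
      have h5 := y2.2
      constructor <;> omega
    rw [h0, Complex.ofReal_zero]
    symm
    refine Finset.sum_eq_zero ?_
    rintro ⟨z1, z2⟩ _
    rw [kroneckerMap_apply]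
    unfold Inc
    by_cases h1 : x1.1 = z1.1
    · have h2 : ¬ x2.1 = z2.1 := fun h2 => hx ⟨h1 ▸ z1.2, h2 ▸ z2.2⟩
      simp only [if_neg h2, mul_zero, zero_mul]
    · simp only [if_neg h1, zero_mul]

/-- the output of padded matrices is the padded output -/
theorem outp_pad {X Y : ℕ} (h : X ≤ Y) (η : ℝ) (A B : Matrix (Ct n X) (Ct n X) ℂ) :
    outp (bsW n η Y) (pad Y A) (pad Y B) = pad (2 * Y) (outp (bsW n η X) A B) := by
  have e1 : pad Y A ⊗ₖ pad Y B =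
      (Inc n X Y ⊗ₖ Inc n X Y) * (A ⊗ₖ B) * (Inc n X Y ⊗ₖ Inc n X Y)ᴴ := by
    unfold pad
    rw [Matrix.mul_kronecker_mul, Matrix.mul_kronecker_mul, Matrix.conjTranspose_kronecker]
  unfold outp
  rw [e1]
  have e2 : bsW n η Y * ((Inc n X Y ⊗ₖ Inc n X Y) * (A ⊗ₖ B) * (Inc n X Y ⊗ₖ Inc n X Y)ᴴ) *
      (bsW n η Y)ᴴ =
      (Inc n (2 * X) (2 * Y) ⊗ₖ Inc n (2 * X) (2 * Y)) *
        (bsW n η X * (A ⊗ₖ B) * (bsW n η X)ᴴ) *
        (Inc n (2 * X) (2 * Y) ⊗ₖ Inc n (2 * X) (2 * Y))ᴴ := by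
    calc bsW n η Y * ((Inc n X Y ⊗ₖ Inc n X Y) * (A ⊗ₖ B) * (Inc n X Y ⊗ₖ Inc n X Y)ᴴ) *
        (bsW n η Y)ᴴ
        = (bsW n η Y * (Inc n X Y ⊗ₖ Inc n X Y)) * (A ⊗ₖ B) *
          (bsW n η Y * (Inc n X Y ⊗ₖ Inc n X Y))ᴴ := by
          rw [Matrix.conjTranspose_mul (bsW n η Y)]
          simp only [Matrix.mul_assoc]
      _ = _ := by
          rw [bsW_Inc h, Matrix.conjTranspose_mul _ (bsW n η X)]
          simp only [Matrix.mul_assoc]
  rw [e2, ptrR_conj (Inc_iso (by omega))]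
  rfl

end pad

end

end Vale.Agent.P369.H374
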