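import Vale.Agent.P369.H374.Lim

/-!
P369 (helper374), package LIM of the finite-matrix track: `thm_LIM : S_LIM`.
-/

set_option linter.all false

namespace Vale.Agent.P369.H374

open Matrix Filter
open Vale.Agent.P369 (Conf up down ampn g)
open Vale.Agent.P369A (Ct)
open Vale.Agent.P369.FD
open scoped Kronecker ComplexOrder Topology

noncomputable section

variable {n : ℕ}

theorem trace_pD {D : ℕ} (x lam : ℝ) (A : Matrix (Ct n D) (Ct n D) ℂ) :
    (pD n x lam D * A).trace.re = x * enr A + wD lam D * (fnum (n := n) D (fun k => lam ^ k) * A).trace.re := by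
  unfold pD
  rw [trace_fnum, enr_eq_fnum, trace_fnum, trace_fnum, Finset.mul_sum, Finset.mul_sum,
    ← Finset.sum_add_distrib]
  refine Finset.sum_congr rfl fun k _ => ?_
  ring

theorem trace_pD_ge {D : ℕ} {x lam : ℝ} (hl : 0 ≤ lam) {A : Matrix (Ct n D) (Ct n D) ℂ}
    (hA : A.PosSemidef) : x * enr A ≤ (pD n x lam D * A).trace.re := by
  rw [trace_pD]
  have h1 : 0 ≤ wD lam D := by
    unfold wD
    positivity
  have h2 : 0 ≤ (fnum (n := n) D (fun k => lam ^ k) * A).trace.re := by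
    rw [trace_fnum]
    exact Finset.sum_nonneg fun k _ => mul_nonneg (pow_nonneg hl _) (diag_re_nonneg hA k)
  have := mul_nonneg h1 h2
  linarith

/-- the functional at a padded pair -/
theorem FD_pad_le {η NA NB δ lam : ℝ} (hM : 0 < bb (η * NA + (1 - η) * NB))
    {D0 D : ℕ} (hD : D0 ≤ D) {A B : Matrix (Ct n D0) (Ct n D0) ℂ} (hη0 : 0 ≤ η) (hη1 : η ≤ 1)
    (hA : IsDM A) (hB : IsDM B) :
    FD n η NA NB δ lam D (pad D A) (pad D B) ≤
      1 / bb (η * NA + (1 - η) * NB) * (ent (outp (bsW n η D0) A B) +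
        Fintype.card (Ct n (2 * D)) * Real.negMulLog (eD D)) +
      (δ * η * enr A + wD lam D * (fnum (n := n) D0 (fun k => lam ^ k) * A).trace.re) +
      (δ * (1 - η) * enr B + wD lam D * (fnum (n := n) D0 (fun k => lam ^ k) * B).trace.re) -
      (1 + δ) * η / bb NA * ent A - (1 + δ) * (1 - η) / bb NB * ent B := by
  have hC : IsDM (outp (bsW n η D0) A B) := outp_isDM (thm_BS n η hη0 hη1 D0).iso hA hB
  have hCp : IsDM (pad (2 * D) (outp (bsW n η D0) A B)) := pad_isDM (by omega) hC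
  have h1 := ent_add_le hCp.1 (Real.exp_pos (-(D : ℝ))).le
  rw [ent_pad (by omega) hC.1.isHermitian] at h1
  unfold FD Fun
  rw [trace_pD, trace_pD, enr_pad hD, enr_pad hD, trace_fnum_pad hD, trace_fnum_pad hD,
    outp_pad hD, ent_pad hD hA.1.isHermitian, ent_pad hD hB.1.isHermitian]
  have h2 : 0 ≤ 1 / bb (η * NA + (1 - η) * NB) := by positivity
  have h3 := mul_le_mul_of_nonneg_left h1 h2
  have h4 : ent (pad (2 * D) (outp (bsW n η D0) A B) + ((eD D : ℝ) : ℂ) • (1 : Matrix _ _ ℂ)) =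
      ent (pad (2 * D) (outp (bsW n η D0) A B) +
        ((Real.exp (-(D : ℝ)) : ℝ) : ℂ) • (1 : Matrix _ _ ℂ)) := rfl
  rw [h4]
  have h5 : Real.negMulLog (eD D) = Real.negMulLog (Real.exp (-(D : ℝ))) := rfl
  rw [h5]
  linarith

/-- lower bound of the functional at a pair with small first moments -/
theorem FD_ge (hG : S_GIBBS) {η NA NB δ lam : ℝ} (hNA : 0 < NA) (hNB : 0 < NB) (hδ : 0 < δ)
    (hη0 : 0 < η) (hη1 : η < 1) (hl : 0 ≤ lam) {D : ℕ} {A B : Matrix (Ct n D) (Ct n D) ℂ}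
    (hA : IsDM A) (hB : IsDM B) {x τ : ℝ}
    (hAx : ∀ j, ‖(A * low D j).trace‖ ^ 2 ≤ x) (hBx : ∀ j, ‖(B * low D j).trace‖ ^ 2 ≤ x)
    (h1 : enr (outp (bsW n η D) A B) ≤ n * (η * NA + (1 - η) * NB) + τ)
    (h2 : n * g (η * NA + (1 - η) * NB) - τ ≤
      ent (outp (bsW n η D) A B + ((eD D : ℝ) : ℂ) • (1 : Matrix _ _ ℂ))) :
    1 / bb (η * NA + (1 - η) * NB) * (n * g (η * NA + (1 - η) * NB) - τ) -
      (n * (η * NA + (1 - η) * NB) + τ + n * x) + (1 + δ) * (n * (η * NA + (1 - η) * NB)) -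
      (1 + δ) * (n * (η * (g NA / bb NA) + (1 - η) * (g NB / bb NB))) ≤
    FD n η NA NB δ lam D A B := by
  have hM : 0 < η * NA + (1 - η) * NB := by
    have := mul_pos hη0 hNA
    have := mul_pos (sub_pos.2 hη1) hNB
    linarith
  have bM := bb_pos hM
  have bA := bb_pos hNA
  have bB := bb_pos hNB
  have gA := hG n D A hA NA hNA
  have gB := hG n D B hB NB hNB
  have pA := trace_pD_ge (x := δ * η) (D := D) hl hA.1
  have pB := trace_pD_ge (x := δ * (1 - η)) (D := D) hl hB.1
  have hE := enr_outp hη0.le hη1.le hA hB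
  have hc := cross_le hη0.le hη1.le hAx hBx
  have hc' := (abs_le.1 hc).1
  have h3 := mul_le_mul_of_nonneg_left h2 (by positivity : 0 ≤ 1 / bb (η * NA + (1 - η) * NB))
  have h4 : (1 + δ) * η / bb NA * ent A ≤
      (1 + δ) * η * (enr A - n * NA) + (1 + δ) * (n * (η * (g NA / bb NA))) := by
    have h := mul_le_mul_of_nonneg_left gA (by positivity : 0 ≤ (1 + δ) * η / bb NA)
    refine h.trans (le_of_eq ?_)
    field_simp
  have h5 : (1 + δ) * (1 - η) / bb NB * ent B ≤
      (1 + δ) * (1 - η) * (enr B - n * NB) + (1 + δ) * (n * ((1 - η) * (g NB / bb NB))) := by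
    have h1η : 0 < 1 - η := sub_pos.2 hη1
    have h := mul_le_mul_of_nonneg_left gB (by positivity : 0 ≤ (1 + δ) * (1 - η) / bb NB)
    refine h.trans (le_of_eq ?_)
    field_simp
  unfold FD Fun
  linarith

/-- package LIM -/
theorem lim_main : S_LIM := by
  intro hBS hMAIN hEND hGIBBS n η NA NB hη0 hη1 hNA hNB D0 A0 B0 hA0 hB0
  have hM : 0 < η * NA + (1 - η) * NB := by
    have := mul_pos hη0 hNA
    have := mul_pos (sub_pos.2 hη1) hNB
    linarith
  have bM := bb_pos hM
  have bA := bb_pos hNA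
  have bB := bb_pos hNB
  have h1η : 0 < 1 - η := sub_pos.2 hη1
  set M := η * NA + (1 - η) * NB with hMdef
  -- the exponential weight
  obtain ⟨lam, hl1, hlA, hlB⟩ : ∃ lam : ℝ, 1 < lam ∧ lam < 1 + 1 / NA ∧ lam < 1 + 1 / NB := by
    refine ⟨1 + min (1 / NA) (1 / NB) / 2, ?_, ?_, ?_⟩
    · have : 0 < min (1 / NA) (1 / NB) := lt_min (by positivity) (by positivity)
      linarith
    · have h1 : 0 < 1 / NA := by positivity
      have h2 : min (1 / NA) (1 / NB) ≤ 1 / NA := min_le_left _ _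
      linarith
    · have h1 : 0 < 1 / NB := by positivity
      have h2 : min (1 / NA) (1 / NB) ≤ 1 / NB := min_le_right _ _
      linarith
  -- the inequality with parameter `δ`
  have key : ∀ δ : ℝ, 0 < δ →
      1 / bb M * (n * g M) - n * M + (1 + δ) * (n * M) -
        (1 + δ) * (n * (η * (g NA / bb NA) + (1 - η) * (g NB / bb NB))) ≤
      1 / bb M * ent (outp (bsW n η D0) A0 B0) + δ * η * enr A0 + δ * (1 - η) * enr B0 -
        (1 + δ) * η / bb NA * ent A0 - (1 + δ) * (1 - η) / bb NB * ent B0 := by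
    intro δ hδ
    obtain ⟨K, ρ, hK, hρ0, hρ1, hmain⟩ := hMAIN n η NA NB δ lam hη0 hη1 hNA hNB hδ hl1 hlA hlB
    -- the upper bound converges
    have hU : Tendsto (fun D : ℕ => 1 / bb M * (ent (outp (bsW n η D0) A0 B0) +
        Fintype.card (Ct n (2 * D)) * Real.negMulLog (eD D)) +
        (δ * η * enr A0 + wD lam D * (fnum (n := n) D0 (fun k => lam ^ k) * A0).trace.re) +
        (δ * (1 - η) * enr B0 + wD lam D * (fnum (n := n) D0 (fun k => lam ^ k) * B0).trace.re) -
        (1 + δ) * η / bb NA * ent A0 - (1 + δ) * (1 - η) / bb NB * ent B0 + n * (K * ρ ^ D)) atTop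
        (𝓝 (1 / bb M * (ent (outp (bsW n η D0) A0 B0) + 0) +
        (δ * η * enr A0 + 0 * (fnum (n := n) D0 (fun k => lam ^ k) * A0).trace.re) +
        (δ * (1 - η) * enr B0 + 0 * (fnum (n := n) D0 (fun k => lam ^ k) * B0).trace.re) -
        (1 + δ) * η / bb NA * ent A0 - (1 + δ) * (1 - η) / bb NB * ent B0 + n * (K * 0))) := by
      have t1 := tendsto_card (n := n)
      have t2 := tendsto_wD hl1
      have t3 : Tendsto (fun D : ℕ => ρ ^ D) atTop (𝓝 0) :=
        tendsto_pow_atTop_nhds_zero_of_lt_one hρ0.le hρ1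
      exact ((((((t1.const_add _).const_mul _).add ((t2.mul_const _).const_add _)).add
        ((t2.mul_const _).const_add _)).sub_const _).sub_const _).add ((t3.const_mul K).const_mul _)
    have hτ : ∀ τ : ℝ, 0 < τ →
        1 / bb M * (n * g M - τ) - (n * M + τ) + (1 + δ) * (n * M) -
          (1 + δ) * (n * (η * (g NA / bb NA) + (1 - η) * (g NB / bb NB))) ≤
        1 / bb M * (ent (outp (bsW n η D0) A0 B0) + 0) +
        (δ * η * enr A0 + 0 * (fnum (n := n) D0 (fun k => lam ^ k) * A0).trace.re) +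
        (δ * (1 - η) * enr B0 + 0 * (fnum (n := n) D0 (fun k => lam ^ k) * B0).trace.re) -
        (1 + δ) * η / bb NA * ent A0 - (1 + δ) * (1 - η) / bb NB * ent B0 + n * (K * 0) := by
      intro τ hτ
      have hK' : 0 < ((n : ℝ) + 2) * K := by positivity
      obtain ⟨D1, hD1⟩ := hEND n M (((n : ℝ) + 2) * K) ρ hM hK' hρ0 hρ1 τ hτ
      refine ge_of_tendsto hU ?_
      filter_upwards [eventually_ge_atTop 1, eventually_ge_atTop D0, eventually_ge_atTop D1]
        with D g1 g2 g3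
      obtain ⟨A, B, C, hA, hB, hC, tA, tB, hCeq, hmin, eA, eB, mA, mB, hdf⟩ := hmain D g1
      have dA : IsDM A := ⟨hA.posSemidef, tA⟩
      have dB : IsDM B := ⟨hB.posSemidef, tB⟩
      have dC : IsDM (outp (bsW n η D) A B) := outp_isDM (thm_BS n η hη0.le hη1.le D).iso dA dB
      have hr0 : 0 ≤ ρ ^ D := pow_nonneg hρ0.le D
      have hr1 : ρ ^ D ≤ 1 := pow_le_one₀ hρ0.le hρ1.le
      have hKr : 0 ≤ K * ρ ^ D := by positivity
      have hn0 : (0 : ℝ) ≤ n := Nat.cast_nonneg n
      have hcross := (abs_le.1 (cross_le hη0.le hη1.le mA mB)).2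
      have hE := enr_outp hη0.le hη1.le dA dB
      have hEK : enr (outp (bsW n η D) A B) ≤ ((n : ℝ) + 2) * K := by
        have q1 := mul_le_mul_of_nonneg_left eA hη0.le
        have q2 := mul_le_mul_of_nonneg_left eB h1η.le
        have q3 : (n : ℝ) * (K * ρ ^ D) ≤ n * K := by
          refine mul_le_mul_of_nonneg_left ?_ hn0
          nlinarith
        nlinarith
      have hmom : ∀ j, ‖(outp (bsW n η D) A B * low (2 * D) j).trace‖ ^ 2 ≤
          ((n : ℝ) + 2) * K * ρ ^ D := fun j => by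
        refine (norm_outp_c hη0.le hη1.le dA dB j (mA j) (mB j)).trans ?_
        have : 0 ≤ (n : ℝ) * (K * ρ ^ D) := mul_nonneg hn0 hKr
        nlinarith
      have hdf' : ∀ j, dform (fun x y => 1 / (x + y)) hC.isHermitian
          (Xl M (low (2 * D) j) C -
            ((outp (bsW n η D) A B * low (2 * D) j).trace / C.trace) • C) ≤
          ((n : ℝ) + 2) * K * ρ ^ D := fun j => by
        refine (hdf j).trans ?_
        have : 0 ≤ (n : ℝ) * (K * ρ ^ D) := mul_nonneg hn0 hKr
        nlinarith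
      obtain ⟨r1, r2⟩ := hD1 D g3 (outp (bsW n η D) A B) C dC hCeq hC hEK hmom hdf'
      rw [hCeq] at r2
      have hlow := FD_ge (lam := lam) hGIBBS hNA hNB hδ hη0 hη1 (by linarith) dA dB mA mB r1 r2
      have hup := FD_pad_le (δ := δ) (lam := lam) bM g2 hη0.le hη1.le hA0 hB0
      have hm := hmin (pad D A0) (pad D B0) (pad_isDM g2 hA0) (pad_isDM g2 hB0)
      rw [← hMdef] at hlow hup
      linarith
    -- let `τ → 0`
    have h2 : (1 / bb M * (n * g M) - n * M + (1 + δ) * (n * M) -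
        (1 + δ) * (n * (η * (g NA / bb NA) + (1 - η) * (g NB / bb NB)))) -
      (1 / bb M * ent (outp (bsW n η D0) A0 B0) + δ * η * enr A0 + δ * (1 - η) * enr B0 -
        (1 + δ) * η / bb NA * ent A0 - (1 + δ) * (1 - η) / bb NB * ent B0) ≤ 0 := by
      refine lin_limit (b := 1 / bb M + 1) fun τ hτ0 => ?_
      have := hτ τ hτ0
      nlinarith
    linarith
  -- let `δ → 0`
  have h3 : (1 / bb M * (n * g M) - (n * (η * (g NA / bb NA) + (1 - η) * (g NB / bb NB)))) -
      (1 / bb M * ent (outp (bsW n η D0) A0 B0) - η / bb NA * ent A0 -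
        (1 - η) / bb NB * ent B0) ≤ 0 := by
    refine lin_limit (b := η * enr A0 + (1 - η) * enr B0 - η / bb NA * ent A0 -
      (1 - η) / bb NB * ent B0 - n * M +
      (n * (η * (g NA / bb NA) + (1 - η) * (g NB / bb NB)))) fun δ hδ => ?_
    have := key δ hδ
    have e1 : (1 + δ) * η / bb NA * ent A0 = η / bb NA * ent A0 + δ * (η / bb NA * ent A0) := by
      ring
    have e2 : (1 + δ) * (1 - η) / bb NB * ent B0 =
        (1 - η) / bb NB * ent B0 + δ * ((1 - η) / bb NB * ent B0) := by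
      ring
    rw [e1, e2] at this
    linarith
  have e3 : (n : ℝ) * (g M / bb M - η * (g NA / bb NA) - (1 - η) * (g NB / bb NB)) =
      1 / bb M * (n * g M) - (n * (η * (g NA / bb NA) + (1 - η) * (g NB / bb NB))) := by
    ring
  have e4 : ent (outp (bsW n η D0) A0 B0) / bb M - η * (ent A0 / bb NA) -
      (1 - η) * (ent B0 / bb NB) = 1 / bb M * ent (outp (bsW n η D0) A0 B0) -
        η / bb NA * ent A0 - (1 - η) / bb NB * ent B0 := by
    ring
  rw [e3, e4]
  linarith

end

end Vale.Agent.P369.H374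

namespace Vale.Agent.P369.FD

/-- package LIM -/
theorem thm_LIM : S_LIM := Vale.Agent.P369.H374.lim_main

end Vale.Agent.P369.FD
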